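import Mathlib

/-!
Orientations of mixed multigraphs.  The vertex set is `V`.  The undirected edges are indexed by
`E`, the edge `i` joining `a i` and `b i`.  The fixed arcs are indexed by `F`, the arc `f` going
from `t f` to `h f`.  An orientation is a function `x : E → Bool`: the edge `i` points to `b i`
if `x i` is true and to `a i` otherwise.  The ground set of the matroids is `E × Bool`, the
element `(i, c)` meaning that the edge `i` is oriented according to `c`.
-/

namespace Vale.Agent.Lib.P317

variable {V E F : Type*}

/-- The head of the edge `p.1` when it is oriented according to `p.2`. -/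
def headOf (a b : E → V) (p : E × Bool) : V := if p.2 then b p.1 else a p.1

/-- The tail of the edge `p.1` when it is oriented according to `p.2`. -/
def tailOf (a b : E → V) (p : E × Bool) : V := if p.2 then a p.1 else b p.1

/-- The number of arcs entering `X` in the orientation `x` of the edges, fixed arcs included. -/
noncomputable def inDegree (a b : E → V) (t h : F → V) (x : E → Bool) (X : Set V) : ℕ :=
  Set.ncard {i : E | tailOf a b (i, x i) ∉ X ∧ headOf a b (i, x i) ∈ X} +
    Set.ncard {f : F | t f ∉ X ∧ h f ∈ X}

/-- The orientation `x` (together with the fixed arcs) is `k`-arc-connected: at least `k` arcs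
enter every nonempty proper subset of the vertices. -/
def IsArcConnected (a b : E → V) (t h : F → V) (k : ℕ) (x : E → Bool) : Prop :=
  ∀ X : Set V, X.Nonempty → X ≠ Set.univ → k ≤ inDegree a b t h x X

/-- The arc relation of an orientation `x` together with the fixed arcs. -/
def ArcRel (a b : E → V) (t h : F → V) (x : E → Bool) (u v : V) : Prop :=
  (∃ i : E, tailOf a b (i, x i) = u ∧ headOf a b (i, x i) = v) ∨ ∃ f : F, t f = u ∧ h f = v

/-- The orientation `x` (together with the fixed arcs) is strongly connected. -/
def IsStronglyConnected (a b : E → V) (t h : F → V) (x : E → Bool) : Prop :=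
  ∀ u v : V, Relation.ReflTransGen (ArcRel a b t h x) u v

/-- The subset of `E × Bool` given by an orientation. -/
def graphOf (x : E → Bool) : Set (E × Bool) := {p | x p.1 = p.2}

/-- The base condition of the second matroid: `B` has `|E|` elements and, for every nonempty proper
subset `X` of the vertices, the number of elements of `B` with head in `X`, plus the number of
fixed arcs entering `X`, is at least `k` plus the number of edges with both ends in `X`. -/
def IsOrientBase [Fintype E] (a b : E → V) (t h : F → V) (k : ℕ) (B : Set (E × Bool)) : Prop :=
  B.ncard = Fintype.card E ∧ ∀ X : Set V, X.Nonempty → X ≠ Set.univ →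
    Set.ncard {i : E | a i ∈ X ∧ b i ∈ X} + k ≤
      Set.ncard {p : E × Bool | p ∈ B ∧ headOf a b p ∈ X} + Set.ncard {f : F | t f ∉ X ∧ h f ∈ X}

end Vale.Agent.Lib.P317
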