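import Mathlib

/-!
The exchange property for integer vectors under a crossing supermodular lower bound.
-/

namespace Vale.Agent.Lib.P317

open Finset

variable {V : Type*} [Fintype V] [DecidableEq V]

/-- Proper nonempty finsets of vertices. -/
def PropNE (X : Finset V) : Prop := X.Nonempty ∧ X ≠ univ

/-- The exchange lemma: let `m`, `m'` be integer vectors with the same total, both above the crossing
supermodular function `p` on proper nonempty sets.  If `m' u < m u` there is `v` with `m v < m' v`
such that every proper nonempty `X` containing `u` but not `v` is not tight for `m`. -/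
theorem exchange_vector (p : Finset V → ℤ)
    (hp : ∀ X Y : Finset V, PropNE X → PropNE Y → (X ∩ Y).Nonempty → X ∪ Y ≠ univ →
      p X + p Y ≤ p (X ∩ Y) + p (X ∪ Y))
    (m m' : V → ℤ) (htot : ∑ v, m v = ∑ v, m' v)
    (hm : ∀ X, PropNE X → p X ≤ ∑ v ∈ X, m v)
    (hm' : ∀ X, PropNE X → p X ≤ ∑ v ∈ X, m' v)
    (u : V) (hu : m' u < m u) :
    ∃ v, m v < m' v ∧ ∀ X, PropNE X → u ∈ X → v ∉ X → p X < ∑ v ∈ X, m v := by
  classical
  by_contra hcon
  simp only [not_exists, not_and, not_forall, not_lt, exists_prop] at hcon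
  -- the family of complements of tight sets containing u
  let C : Finset V → Prop := fun Y => Y.Nonempty ∧ Y ≠ univ ∧ u ∉ Y ∧ p Yᶜ = ∑ v ∈ Yᶜ, m v
  have hcompl_prop : ∀ Y, Y.Nonempty → u ∉ Y → PropNE Yᶜ := by
    intro Y hY huY
    refine ⟨⟨u, by simpa using huY⟩, ?_⟩
    intro h
    obtain ⟨w, hw⟩ := hY
    have : w ∈ Yᶜ := by rw [h]; exact mem_univ _
    simp at this
    exact this hw
  have hsumcompl : ∀ (g : V → ℤ) (Y : Finset V), ∑ v ∈ Y, g v + ∑ v ∈ Yᶜ, g v = ∑ v, g v :=
    fun g Y => Finset.sum_add_sum_compl Y g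
  -- members satisfy the inequality
  have hC_le : ∀ Y, C Y → ∑ v ∈ Y, m' v ≤ ∑ v ∈ Y, m v := by
    intro Y hY
    have h1 := hm' Yᶜ (hcompl_prop Y hY.1 hY.2.2.1)
    rw [hY.2.2.2] at h1
    have h2 := hsumcompl m Y
    have h3 := hsumcompl m' Y
    linarith
  -- closure under union of intersecting members
  have hC_union : ∀ Y₁ Y₂, C Y₁ → C Y₂ → (Y₁ ∩ Y₂).Nonempty → C (Y₁ ∪ Y₂) := by
    intro Y₁ Y₂ h₁ h₂ hne
    have hu₁ := h₁.2.2.1
    have hu₂ := h₂.2.2.1
    have hX₁ := hcompl_prop Y₁ h₁.1 hu₁
    have hX₂ := hcompl_prop Y₂ h₂.1 hu₂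
    have hcap : Y₁ᶜ ∩ Y₂ᶜ = (Y₁ ∪ Y₂)ᶜ := by
      ext w; simp
    have hcup : Y₁ᶜ ∪ Y₂ᶜ = (Y₁ ∩ Y₂)ᶜ := by
      ext w; simp
    have hu12 : u ∉ Y₁ ∪ Y₂ := by simp [hu₁, hu₂]
    have hne12 : (Y₁ ∪ Y₂).Nonempty := h₁.1.mono subset_union_left
    have hcapP : PropNE ((Y₁ ∪ Y₂)ᶜ) := hcompl_prop _ hne12 hu12
    have hcupP : PropNE ((Y₁ ∩ Y₂)ᶜ) :=
      hcompl_prop _ hne (by simp [hu₁])
    have hcross := hp _ _ hX₁ hX₂ (by rw [hcap]; exact hcapP.1) (by rw [hcup]; exact hcupP.2)
    rw [hcap, hcup] at hcross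
    have h3 := hm _ hcapP
    have h4 := hm _ hcupP
    have h5 := hsumcompl m (Y₁ ∪ Y₂)
    have h6 := hsumcompl m (Y₁ ∩ Y₂)
    have h7 := hsumcompl m Y₁
    have h8 := hsumcompl m Y₂
    have h9 : ∑ v ∈ Y₁ ∪ Y₂, m v + ∑ v ∈ Y₁ ∩ Y₂, m v = ∑ v ∈ Y₁, m v + ∑ v ∈ Y₂, m v :=
      Finset.sum_union_inter
    rw [h₁.2.2.2, h₂.2.2.2] at hcross
    refine ⟨hne12, ?_, hu12, ?_⟩
    · intro h
      exact hu12 (by rw [h]; exact mem_univ _)
    · linarith
  -- finite unions
  have hfam : ∀ n : ℕ, ∀ A : Finset (Finset V), A.card = n → (∀ Y ∈ A, C Y) →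
      ∑ v ∈ A.biUnion id, m' v ≤ ∑ v ∈ A.biUnion id, m v := by
    intro n
    induction n using Nat.strong_induction_on with
    | _ n ih =>
      intro A hA hAC
      rcases A.eq_empty_or_nonempty with rfl | ⟨Y, hY⟩
      · simp
      by_cases hinter : ∃ Z ∈ A.erase Y, (Y ∩ Z).Nonempty
      · obtain ⟨Z, hZ, hYZ⟩ := hinter
        have hZA := (mem_erase.mp hZ).2
        have hZY := (mem_erase.mp hZ).1
        -- replace Y, Z by their union
        set A' := insert (Y ∪ Z) ((A.erase Y).erase Z) with hA'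
        have hcard : A'.card < n := by
          have h1 : ((A.erase Y).erase Z).card + 2 = A.card := by
            rw [card_erase_of_mem hZ, card_erase_of_mem hY]
            have : 2 ≤ A.card := by
              have h3 : ({Y, Z} : Finset (Finset V)) ⊆ A := by
                intro w hw
                simp only [mem_insert, mem_singleton] at hw
                rcases hw with rfl | rfl
                · exact hY
                · exact hZA
              have := card_le_card h3
              rwa [card_pair (Ne.symm hZY)] at this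
            omega
          have h2 : A'.card ≤ ((A.erase Y).erase Z).card + 1 := card_insert_le _ _
          omega
        have hA'C : ∀ W ∈ A', C W := by
          intro W hW
          rcases mem_insert.mp hW with rfl | hW
          · exact hC_union Y Z (hAC Y hY) (hAC Z hZA) hYZ
          · exact hAC W (mem_of_mem_erase (mem_of_mem_erase hW))
        have hunion : A'.biUnion id = A.biUnion id := by
          ext w
          simp only [mem_biUnion, id]
          constructor
          · rintro ⟨W, hW, hw⟩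
            rcases mem_insert.mp hW with rfl | hW
            · rcases mem_union.mp hw with hw | hw
              · exact ⟨Y, hY, hw⟩
              · exact ⟨Z, hZA, hw⟩
            · exact ⟨W, mem_of_mem_erase (mem_of_mem_erase hW), hw⟩
          · rintro ⟨W, hW, hw⟩
            by_cases h1 : W = Y
            · subst h1
              exact ⟨W ∪ Z, mem_insert_self _ _, mem_union_left _ hw⟩
            by_cases h2 : W = Z
            · subst h2
              exact ⟨Y ∪ W, mem_insert_self _ _, mem_union_right _ hw⟩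
            · exact ⟨W, mem_insert_of_mem (mem_erase.mpr ⟨h2, mem_erase.mpr ⟨h1, hW⟩⟩), hw⟩
        have := ih _ hcard A' rfl hA'C
        rwa [hunion] at this
      · -- Y is disjoint from the others
        have hdisj : Disjoint Y ((A.erase Y).biUnion id) := by
          rw [Finset.disjoint_left]
          intro w hw hw'
          obtain ⟨Z, hZ, hwZ⟩ := mem_biUnion.mp hw'
          exact hinter ⟨Z, hZ, ⟨w, mem_inter.mpr ⟨hw, hwZ⟩⟩⟩
        have hunion : A.biUnion id = Y ∪ (A.erase Y).biUnion id := by
          ext w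
          simp only [mem_biUnion, id, mem_union]
          constructor
          · rintro ⟨W, hW, hw⟩
            by_cases h1 : W = Y
            · subst h1; exact Or.inl hw
            · exact Or.inr ⟨W, mem_erase.mpr ⟨h1, hW⟩, hw⟩
          · rintro (hw | ⟨W, hW, hw⟩)
            · exact ⟨Y, hY, hw⟩
            · exact ⟨W, mem_of_mem_erase hW, hw⟩
        rw [hunion, sum_union hdisj, sum_union hdisj]
        have h1 := hC_le Y (hAC Y hY)
        have hcard : (A.erase Y).card < n := by
          rw [card_erase_of_mem hY]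
          have := card_pos.mpr ⟨Y, hY⟩
          omega
        have h2 := ih _ hcard (A.erase Y) rfl (fun W hW => hAC W (mem_of_mem_erase hW))
        linarith
  -- the union of all members
  set A : Finset (Finset V) := univ.filter C with hA
  set S : Finset V := A.biUnion id with hS
  have hS_le := hfam _ A rfl (fun Y hY => (mem_filter.mp hY).2)
  have huS : u ∉ S := by
    intro h
    obtain ⟨Y, hY, hw⟩ := mem_biUnion.mp h
    exact (mem_filter.mp hY).2.2.2.1 hw
  -- outside S, m dominates m'
  have hout : ∀ v ∈ Sᶜ, m' v ≤ m v := by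
    intro v hv
    by_contra hlt
    simp only [not_le] at hlt
    obtain ⟨X, hXP, huX, hvX, hle⟩ := hcon v hlt
    have hXt : p X = ∑ w ∈ X, m w := le_antisymm (hm X hXP) hle
    have hYC : C Xᶜ := by
      refine ⟨⟨v, by simpa using hvX⟩, ?_, by simpa using huX, ?_⟩
      · intro h
        have : u ∈ Xᶜ := by rw [h]; exact mem_univ _
        simp [huX] at this
      · rw [compl_compl]; exact hXt
    have : v ∈ S := mem_biUnion.mpr ⟨Xᶜ, mem_filter.mpr ⟨mem_univ _, hYC⟩, by simpa using hvX⟩
    exact (mem_compl.mp hv) this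
  have hstrict : ∑ v ∈ Sᶜ, m' v < ∑ v ∈ Sᶜ, m v :=
    Finset.sum_lt_sum hout ⟨u, mem_compl.mpr huS, hu⟩
  have h1 := Finset.sum_add_sum_compl S m
  have h2 := Finset.sum_add_sum_compl S m'
  linarith

end Vale.Agent.Lib.P317
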