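import Vale.Agent.Lib.P317.Defs
import Vale.Agent.Lib.P317.Exchange

/-!
Common bases of two matroids and `k`-arc-connected orientations of mixed multigraphs.
-/

namespace Vale.Agent.Lib.P317

open Finset

set_option linter.unusedSectionVars false
set_option linter.unusedSimpArgs false
set_option linter.deprecated false

variable {V E F : Type*} [Fintype V] [Fintype E] [Fintype F]

section counting

variable [DecidableEq V] [DecidableEq E]

/-- Number of elements of `B` with head in `X`. -/
noncomputable def cnt (a b : E → V) (B : Set (E × Bool)) (X : Set V) : ℕ :=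
  Set.ncard {p : E × Bool | p ∈ B ∧ headOf a b p ∈ X}

open Classical in
lemma cnt_exchange (a b : E → V) {B : Set (E × Bool)} {q q' : E × Bool} (hq : q ∈ B) (hq' : q' ∉ B)
    (X : Set V) :
    cnt a b (insert q' (B \ {q})) X + (if headOf a b q ∈ X then 1 else 0) =
      cnt a b B X + (if headOf a b q' ∈ X then 1 else 0) := by
  classical
  unfold cnt
  set S : Set (E × Bool) := {p | p ∈ B ∧ headOf a b p ∈ X} with hS
  have hfin : ∀ T : Set (E × Bool), T.Finite := fun T => Set.toFinite T
  have hq'S : q' ∉ S := fun h => hq' h.1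
  have hne : q' ≠ q := fun h => hq' (h ▸ hq)
  by_cases h1 : headOf a b q ∈ X <;> by_cases h2 : headOf a b q' ∈ X
  · have hS' : {p | p ∈ insert q' (B \ {q}) ∧ headOf a b p ∈ X} = insert q' (S \ {q}) := by
      ext p
      simp only [Set.mem_setOf_eq, Set.mem_insert_iff, Set.mem_diff, Set.mem_singleton_iff, hS]
      constructor
      · rintro ⟨rfl | ⟨h3, h4⟩, h5⟩
        · exact Or.inl rfl
        · exact Or.inr ⟨⟨h3, h5⟩, h4⟩
      · rintro (rfl | ⟨⟨h3, h5⟩, h4⟩)
        · exact ⟨Or.inl rfl, h2⟩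
        · exact ⟨Or.inr ⟨h3, h4⟩, h5⟩
    have hqS : q ∈ S := ⟨hq, h1⟩
    rw [hS', Set.ncard_insert_of_notMem (fun h => hq'S h.1) (hfin _),
      Set.ncard_diff_singleton_add_one hqS (hfin _)]
    simp [h1, h2]
  · have hS' : {p | p ∈ insert q' (B \ {q}) ∧ headOf a b p ∈ X} = S \ {q} := by
      ext p
      simp only [Set.mem_setOf_eq, Set.mem_insert_iff, Set.mem_diff, Set.mem_singleton_iff, hS]
      constructor
      · rintro ⟨rfl | ⟨h3, h4⟩, h5⟩
        · exact absurd h5 h2
        · exact ⟨⟨h3, h5⟩, h4⟩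
      · rintro ⟨⟨h3, h5⟩, h4⟩
        exact ⟨Or.inr ⟨h3, h4⟩, h5⟩
    have hqS : q ∈ S := ⟨hq, h1⟩
    rw [hS']
    simp only [h1, h2, if_true, if_false]
    have := Set.ncard_diff_singleton_add_one hqS (hfin _)
    omega
  · have hS' : {p | p ∈ insert q' (B \ {q}) ∧ headOf a b p ∈ X} = insert q' S := by
      ext p
      simp only [Set.mem_setOf_eq, Set.mem_insert_iff, Set.mem_diff, Set.mem_singleton_iff, hS]
      constructor
      · rintro ⟨rfl | ⟨h3, h4⟩, h5⟩
        · exact Or.inl rfl
        · exact Or.inr ⟨h3, h5⟩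
      · rintro (rfl | ⟨h3, h5⟩)
        · exact ⟨Or.inl rfl, h2⟩
        · refine ⟨Or.inr ⟨h3, ?_⟩, h5⟩
          rintro rfl
          exact h1 h5
    rw [hS', Set.ncard_insert_of_notMem hq'S (hfin _)]
    simp [h1, h2]
  · have hS' : {p | p ∈ insert q' (B \ {q}) ∧ headOf a b p ∈ X} = S := by
      ext p
      simp only [Set.mem_setOf_eq, Set.mem_insert_iff, Set.mem_diff, Set.mem_singleton_iff, hS]
      constructor
      · rintro ⟨rfl | ⟨h3, h4⟩, h5⟩
        · exact absurd h5 h2
        · exact ⟨h3, h5⟩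
      · rintro ⟨h3, h5⟩
        refine ⟨Or.inr ⟨h3, ?_⟩, h5⟩
        rintro rfl
        exact h1 h5
    rw [hS']
    simp [h1, h2]

/-- Vertex counts. -/
noncomputable def vcount (a b : E → V) (B : Set (E × Bool)) (v : V) : ℤ :=
  (Set.ncard {p : E × Bool | p ∈ B ∧ headOf a b p = v} : ℤ)

lemma sum_vcount (a b : E → V) (B : Set (E × Bool)) (X : Finset V) :
    ∑ v ∈ X, vcount a b B v = (cnt a b B (X : Set V) : ℤ) := by
  classical
  unfold vcount cnt
  set T : Finset (E × Bool) := univ.filter (fun p => p ∈ B ∧ headOf a b p ∈ X) with hT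
  have h1 : Set.ncard {p : E × Bool | p ∈ B ∧ headOf a b p ∈ (X : Set V)} = T.card := by
    rw [← Set.ncard_coe_finset T]
    congr 1
    ext p
    simp [hT]
  have h2 : ∀ v ∈ X, Set.ncard {p : E × Bool | p ∈ B ∧ headOf a b p = v} =
      (T.filter (fun p => headOf a b p = v)).card := by
    intro v hv
    rw [← Set.ncard_coe_finset (T.filter (fun p => headOf a b p = v))]
    congr 1
    ext p
    simp only [Set.mem_setOf_eq, hT, coe_filter, mem_filter, mem_univ, true_and]
    constructor
    · rintro ⟨h3, rfl⟩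
      exact ⟨⟨h3, hv⟩, rfl⟩
    · rintro ⟨⟨h3, _⟩, h5⟩
      exact ⟨h3, h5⟩
  rw [h1, card_eq_sum_card_fiberwise (f := fun p => headOf a b p) (t := X)
    (fun p hp => (mem_filter.mp hp).2.2)]
  push_cast
  apply Finset.sum_congr rfl
  intro v hv
  rw [h2 v hv]

/-- The crossing supermodular function. -/
noncomputable def reqFn (a b : E → V) (t h : F → V) (k : ℕ) (X : Finset V) : ℤ :=
  (Set.ncard {i : E | a i ∈ (X : Set V) ∧ b i ∈ (X : Set V)} : ℤ) + k -
    (Set.ncard {f : F | t f ∉ (X : Set V) ∧ h f ∈ (X : Set V)} : ℤ)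

open Classical in
lemma ncard_add_le {I : Type*} [Fintype I] (P₁ P₂ P₃ P₄ : I → Prop)
    (hle : ∀ i, (if P₁ i then 1 else 0) + (if P₂ i then 1 else 0) ≤
      (if P₃ i then 1 else 0) + (if P₄ i then 1 else 0)) :
    Set.ncard {i | P₁ i} + Set.ncard {i | P₂ i} ≤ Set.ncard {i | P₃ i} + Set.ncard {i | P₄ i} := by
  classical
  have key : ∀ P : I → Prop, Set.ncard {i | P i} = ∑ i, if P i then 1 else 0 := by
    intro P
    rw [Set.ncard_eq_toFinset_card', Set.toFinset_setOf, card_filter]
  rw [key, key, key, key, ← sum_add_distrib, ← sum_add_distrib]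
  exact sum_le_sum (fun i _ => hle i)

lemma reqFn_supermodular (a b : E → V) (t h : F → V) (k : ℕ) (X Y : Finset V) :
    reqFn a b t h k X + reqFn a b t h k Y ≤
      reqFn a b t h k (X ∩ Y) + reqFn a b t h k (X ∪ Y) := by
  classical
  have h1 := ncard_add_le
    (fun i : E => a i ∈ (X : Set V) ∧ b i ∈ (X : Set V))
    (fun i : E => a i ∈ (Y : Set V) ∧ b i ∈ (Y : Set V))
    (fun i : E => a i ∈ ((X ∩ Y : Finset V) : Set V) ∧ b i ∈ ((X ∩ Y : Finset V) : Set V))
    (fun i : E => a i ∈ ((X ∪ Y : Finset V) : Set V) ∧ b i ∈ ((X ∪ Y : Finset V) : Set V))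
    (by
      intro i
      simp only [mem_coe, mem_inter, mem_union]
      by_cases h1 : a i ∈ X <;> by_cases h2 : a i ∈ Y <;> by_cases h3 : b i ∈ X <;>
        by_cases h4 : b i ∈ Y <;> simp [h1, h2, h3, h4])
  have h2 := ncard_add_le
    (fun f : F => t f ∉ ((X ∩ Y : Finset V) : Set V) ∧ h f ∈ ((X ∩ Y : Finset V) : Set V))
    (fun f : F => t f ∉ ((X ∪ Y : Finset V) : Set V) ∧ h f ∈ ((X ∪ Y : Finset V) : Set V))
    (fun f : F => t f ∉ (X : Set V) ∧ h f ∈ (X : Set V))
    (fun f : F => t f ∉ (Y : Set V) ∧ h f ∈ (Y : Set V))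
    (by
      intro f
      simp only [mem_coe, mem_inter, mem_union]
      by_cases h1 : t f ∈ X <;> by_cases h2 : t f ∈ Y <;> by_cases h3 : h f ∈ X <;>
        by_cases h4 : h f ∈ Y <;> simp [h1, h2, h3, h4])
  unfold reqFn
  have h1' : ((Set.ncard {i : E | a i ∈ (X : Set V) ∧ b i ∈ (X : Set V)} : ℤ) +
      (Set.ncard {i : E | a i ∈ (Y : Set V) ∧ b i ∈ (Y : Set V)} : ℤ)) ≤
      ((Set.ncard {i : E | a i ∈ ((X ∩ Y : Finset V) : Set V) ∧ b i ∈ ((X ∩ Y : Finset V) : Set V)} : ℤ) +
      (Set.ncard {i : E | a i ∈ ((X ∪ Y : Finset V) : Set V) ∧ b i ∈ ((X ∪ Y : Finset V) : Set V)} : ℤ)) := by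
    exact_mod_cast h1
  have h2' : ((Set.ncard {f : F | t f ∉ ((X ∩ Y : Finset V) : Set V) ∧ h f ∈ ((X ∩ Y : Finset V) : Set V)} : ℤ) +
      (Set.ncard {f : F | t f ∉ ((X ∪ Y : Finset V) : Set V) ∧ h f ∈ ((X ∪ Y : Finset V) : Set V)} : ℤ)) ≤
      ((Set.ncard {f : F | t f ∉ (X : Set V) ∧ h f ∈ (X : Set V)} : ℤ) +
      (Set.ncard {f : F | t f ∉ (Y : Set V) ∧ h f ∈ (Y : Set V)} : ℤ)) := by
    exact_mod_cast h2
  linarith

lemma isOrientBase_iff (a b : E → V) (t h : F → V) (k : ℕ) (B : Set (E × Bool)) :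
    IsOrientBase a b t h k B ↔ B.ncard = Fintype.card E ∧
      ∀ X : Finset V, PropNE X → reqFn a b t h k X ≤ (cnt a b B (X : Set V) : ℤ) := by
  unfold IsOrientBase
  refine and_congr_right (fun _ => ?_)
  constructor
  · intro hB X hX
    have h1 := hB (X : Set V) (by simpa using hX.1) (by
      intro hc
      apply hX.2
      exact_mod_cast hc)
    unfold reqFn cnt
    have h2 : ((Set.ncard {i : E | a i ∈ (X : Set V) ∧ b i ∈ (X : Set V)} : ℤ) + (k : ℤ)) ≤
      (Set.ncard {p : E × Bool | p ∈ B ∧ headOf a b p ∈ (X : Set V)} : ℤ) +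
        (Set.ncard {f : F | t f ∉ (X : Set V) ∧ h f ∈ (X : Set V)} : ℤ) := by
      exact_mod_cast h1
    linarith
  · intro hB X hXne hXu
    classical
    have hX' : PropNE X.toFinite.toFinset := by
      refine ⟨by simpa using hXne, ?_⟩
      intro hc
      apply hXu
      have : ((X.toFinite.toFinset : Finset V) : Set V) = X := by simp
      rw [← this, hc]
      simp
    have h1 := hB _ hX'
    have hcoe : ((X.toFinite.toFinset : Finset V) : Set V) = X := by simp
    unfold reqFn cnt at h1
    rw [hcoe] at h1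
    have h2 : ((Set.ncard {i : E | a i ∈ X ∧ b i ∈ X} : ℤ) + (k : ℤ)) ≤
      (Set.ncard {p : E × Bool | p ∈ B ∧ headOf a b p ∈ X} : ℤ) +
        (Set.ncard {f : F | t f ∉ X ∧ h f ∈ X} : ℤ) := by
      linarith
    exact_mod_cast h2

/-- The exchange property of the second matroid. -/
theorem orient_exchange (a b : E → V) (t h : F → V) (k : ℕ) :
    Matroid.ExchangeProperty (IsOrientBase a b t h k) := by
  classical
  intro B B' hB hB' q hq
  obtain ⟨hqB, hqB'⟩ := hq
  have hB1 := (isOrientBase_iff a b t h k B).mp hB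
  have hB2 := (isOrientBase_iff a b t h k B').mp hB'
  set u := headOf a b q with hu
  set m := vcount a b B with hm
  set m' := vcount a b B' with hm'
  have htot : ∀ B₀ : Set (E × Bool), ∑ v, vcount a b B₀ v = (B₀.ncard : ℤ) := by
    intro B₀
    have h1 := sum_vcount a b B₀ (univ : Finset V)
    rw [h1]
    unfold cnt
    simp
  -- general step: exchange for q' with the same or a good head
  have hcard : ∀ q' : E × Bool, q' ∉ B → (insert q' (B \ {q})).ncard = Fintype.card E := by
    intro q' hq'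
    rw [Set.ncard_insert_of_notMem (fun h => hq' h.1) (Set.toFinite _),
      Set.ncard_diff_singleton_add_one hqB (Set.toFinite _)]
    exact hB1.1
  have hmem : ∀ (v : V), vcount a b B v < vcount a b B' v →
      ∃ q' ∈ B' \ B, headOf a b q' = v := by
    intro v hv
    by_contra hno
    simp only [not_exists, not_and] at hno
    have hsub : {p : E × Bool | p ∈ B' ∧ headOf a b p = v} ⊆ {p | p ∈ B ∧ headOf a b p = v} := by
      rintro p ⟨h1, h2⟩
      refine ⟨?_, h2⟩
      by_contra h3
      exact hno p ⟨h1, h3⟩ h2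
    have := Set.ncard_le_ncard hsub (Set.toFinite _)
    unfold vcount at hv
    omega
  by_cases hcase : m' u < m u
  · -- use the exchange lemma
    have hcross : ∀ X Y : Finset V, PropNE X → PropNE Y → (X ∩ Y).Nonempty → X ∪ Y ≠ univ →
        reqFn a b t h k X + reqFn a b t h k Y ≤
          reqFn a b t h k (X ∩ Y) + reqFn a b t h k (X ∪ Y) :=
      fun X Y _ _ _ _ => reqFn_supermodular a b t h k X Y
    have hm1 : ∀ X, PropNE X → reqFn a b t h k X ≤ ∑ v ∈ X, m v := by
      intro X hX
      rw [hm, sum_vcount]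
      exact hB1.2 X hX
    have hm2 : ∀ X, PropNE X → reqFn a b t h k X ≤ ∑ v ∈ X, m' v := by
      intro X hX
      rw [hm', sum_vcount]
      exact hB2.2 X hX
    have htotal : ∑ v, m v = ∑ v, m' v := by
      rw [hm, hm', htot, htot, hB1.1, hB2.1]
    obtain ⟨v, hv, htight⟩ := exchange_vector (reqFn a b t h k) hcross m m' htotal hm1 hm2 u hcase
    obtain ⟨q', hq', hqv⟩ := hmem v hv
    refine ⟨q', hq', ?_⟩
    rw [isOrientBase_iff]
    refine ⟨hcard q' hq'.2, ?_⟩
    intro X hX
    have hex := cnt_exchange a b hqB hq'.2 (X : Set V)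
    have h1 := hB1.2 X hX
    by_cases huX : u ∈ X <;> by_cases hvX : v ∈ X
    · rw [← hu, hqv] at hex
      simp only [mem_coe, huX, hvX, if_true] at hex
      have : cnt a b (insert q' (B \ {q})) (X : Set V) = cnt a b B (X : Set V) := by omega
      rw [this]; exact h1
    · have h2 := htight X hX huX hvX
      rw [hm, sum_vcount] at h2
      rw [← hu, hqv] at hex
      simp only [mem_coe, huX, hvX, if_true, if_false] at hex
      have : (cnt a b (insert q' (B \ {q})) (X : Set V) : ℤ) + 1 = cnt a b B (X : Set V) := by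
        exact_mod_cast hex
      linarith
    · rw [← hu, hqv] at hex
      simp only [mem_coe, huX, hvX, if_true, if_false] at hex
      have : (cnt a b (insert q' (B \ {q})) (X : Set V) : ℤ) = cnt a b B (X : Set V) + 1 := by
        exact_mod_cast hex
      linarith
    · rw [← hu, hqv] at hex
      simp only [mem_coe, huX, hvX, if_false] at hex
      have : cnt a b (insert q' (B \ {q})) (X : Set V) = cnt a b B (X : Set V) := by omega
      rw [this]; exact h1
  · -- same head
    simp only [not_lt] at hcase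
    have hex : ∃ q' ∈ B' \ B, headOf a b q' = u := by
      by_contra hno
      simp only [not_exists, not_and] at hno
      have hsub : {p : E × Bool | p ∈ B' ∧ headOf a b p = u} ⊆
          {p | p ∈ B ∧ headOf a b p = u} \ {q} := by
        rintro p ⟨h1, h2⟩
        refine ⟨⟨?_, h2⟩, ?_⟩
        · by_contra h3
          exact hno p ⟨h1, h3⟩ h2
        · rintro rfl
          exact hqB' h1
      have h3 := Set.ncard_le_ncard hsub (Set.toFinite _)
      have hqS : q ∈ {p : E × Bool | p ∈ B ∧ headOf a b p = u} := ⟨hqB, rfl⟩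
      have h4 := Set.ncard_diff_singleton_add_one hqS (Set.toFinite _)
      rw [hm, hm'] at hcase
      unfold vcount at hcase
      omega
    obtain ⟨q', hq', hqu⟩ := hex
    refine ⟨q', hq', ?_⟩
    rw [isOrientBase_iff]
    refine ⟨hcard q' hq'.2, ?_⟩
    intro X hX
    have hex := cnt_exchange a b hqB hq'.2 (X : Set V)
    rw [hqu, ← hu] at hex
    have : cnt a b (insert q' (B \ {q})) (X : Set V) = cnt a b B (X : Set V) := by omega
    rw [this]
    exact hB1.2 X hX

end counting

section orient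

variable [DecidableEq E]

lemma graphOf_injective : Function.Injective (graphOf : (E → Bool) → Set (E × Bool)) := by
  intro x y hxy
  funext i
  have : (i, x i) ∈ graphOf y := by
    rw [← hxy]; rfl
  exact (show y i = x i from this).symm

lemma ncard_graphOf (x : E → Bool) : (graphOf x).ncard = Fintype.card E := by
  classical
  have : graphOf x = Set.range (fun i => (i, x i)) := by
    ext p
    simp only [graphOf, Set.mem_setOf_eq, Set.mem_range]
    constructor
    · intro h
      exact ⟨p.1, by rw [h]⟩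
    · rintro ⟨i, rfl⟩
      rfl
  rw [this, Set.ncard_range_of_injective, Nat.card_eq_fintype_card]
  intro i j hij
  exact (Prod.ext_iff.mp hij).1

/-- For an orientation, the base condition is exactly arc-connectivity. -/
lemma isOrientBase_graphOf (a b : E → V) (t h : F → V) (k : ℕ) (x : E → Bool) :
    IsOrientBase a b t h k (graphOf x) ↔ IsArcConnected a b t h k x := by
  classical
  unfold IsOrientBase IsArcConnected inDegree
  constructor
  · rintro ⟨_, h2⟩ X hX hXu
    have h3 := h2 X hX hXu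
    have h4 : Set.ncard {p : E × Bool | p ∈ graphOf x ∧ headOf a b p ∈ X} =
        Set.ncard {i : E | headOf a b (i, x i) ∈ X} := by
      have : {p : E × Bool | p ∈ graphOf x ∧ headOf a b p ∈ X} =
          (fun i => (i, x i)) '' {i : E | headOf a b (i, x i) ∈ X} := by
        ext p
        simp only [Set.mem_setOf_eq, Set.mem_image, graphOf]
        constructor
        · rintro ⟨h5, h6⟩
          refine ⟨p.1, ?_, by rw [h5]⟩
          rw [h5]; exact h6
        · rintro ⟨i, hi, rfl⟩
          exact ⟨rfl, hi⟩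
      rw [this, Set.ncard_image_of_injective]
      intro i j hij
      exact (Prod.ext_iff.mp hij).1
    have h5 : Set.ncard {i : E | headOf a b (i, x i) ∈ X} =
        Set.ncard {i : E | a i ∈ X ∧ b i ∈ X} +
        Set.ncard {i : E | tailOf a b (i, x i) ∉ X ∧ headOf a b (i, x i) ∈ X} := by
      have hun : {i : E | headOf a b (i, x i) ∈ X} = {i : E | a i ∈ X ∧ b i ∈ X} ∪
          {i : E | tailOf a b (i, x i) ∉ X ∧ headOf a b (i, x i) ∈ X} := by
        ext i
        simp only [Set.mem_setOf_eq, Set.mem_union, headOf, tailOf]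
        cases x i <;> simp <;> tauto
      rw [hun, Set.ncard_union_eq _ (Set.toFinite _) (Set.toFinite _)]
      rw [Set.disjoint_left]
      rintro i ⟨h6, h7⟩ ⟨h8, _⟩
      apply h8
      simp only [tailOf]
      split_ifs <;> assumption
    omega
  · intro h2
    refine ⟨ncard_graphOf x, ?_⟩
    intro X hX hXu
    have h3 := h2 X hX hXu
    have h4 : Set.ncard {p : E × Bool | p ∈ graphOf x ∧ headOf a b p ∈ X} =
        Set.ncard {i : E | headOf a b (i, x i) ∈ X} := by
      have : {p : E × Bool | p ∈ graphOf x ∧ headOf a b p ∈ X} =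
          (fun i => (i, x i)) '' {i : E | headOf a b (i, x i) ∈ X} := by
        ext p
        simp only [Set.mem_setOf_eq, Set.mem_image, graphOf]
        constructor
        · rintro ⟨h5, h6⟩
          refine ⟨p.1, ?_, by rw [h5]⟩
          rw [h5]; exact h6
        · rintro ⟨i, hi, rfl⟩
          exact ⟨rfl, hi⟩
      rw [this, Set.ncard_image_of_injective]
      intro i j hij
      exact (Prod.ext_iff.mp hij).1
    have h5 : Set.ncard {i : E | headOf a b (i, x i) ∈ X} =
        Set.ncard {i : E | a i ∈ X ∧ b i ∈ X} +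
        Set.ncard {i : E | tailOf a b (i, x i) ∉ X ∧ headOf a b (i, x i) ∈ X} := by
      have hun : {i : E | headOf a b (i, x i) ∈ X} = {i : E | a i ∈ X ∧ b i ∈ X} ∪
          {i : E | tailOf a b (i, x i) ∉ X ∧ headOf a b (i, x i) ∈ X} := by
        ext i
        simp only [Set.mem_setOf_eq, Set.mem_union, headOf, tailOf]
        cases x i <;> simp <;> tauto
      rw [hun, Set.ncard_union_eq _ (Set.toFinite _) (Set.toFinite _)]
      rw [Set.disjoint_left]
      rintro i ⟨h6, h7⟩ ⟨h8, _⟩
      apply h8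
      simp only [tailOf]
      split_ifs <;> assumption
    omega

/-- The exchange property of the first matroid. -/
lemma graph_exchange :
    Matroid.ExchangeProperty (fun B : Set (E × Bool) => ∃ x : E → Bool, B = graphOf x) := by
  classical
  rintro B B' ⟨x, rfl⟩ ⟨x', rfl⟩ q ⟨hq, hq'⟩
  obtain ⟨i, c⟩ := q
  have hxi : x i = c := hq
  have hxi' : x' i ≠ c := hq'
  refine ⟨(i, x' i), ⟨rfl, ?_⟩, Function.update x i (x' i), ?_⟩
  · intro hc
    have : x i = x' i := hc
    exact hxi' (this ▸ hxi)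
  · ext p
    obtain ⟨j, d⟩ := p
    simp only [graphOf, Set.mem_insert_iff, Set.mem_diff, Set.mem_setOf_eq, Set.mem_singleton_iff,
      Prod.mk.injEq]
    by_cases hj : j = i
    · subst hj
      simp only [Function.update_self, true_and]
      constructor
      · rintro (h1 | ⟨h1, h2⟩)
        · exact h1.symm
        · exact absurd (h1.symm.trans hxi) h2
      · intro h1
        exact Or.inl h1.symm
    · simp only [hj, Function.update_of_ne, ne_eq, not_false_eq_true, false_and, or_false,
        and_true, not_false_iff]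
      simp

/-- Arc-connectivity with `k = 1` is strong connectivity. -/
lemma isArcConnected_one_iff (a b : E → V) (t h : F → V) (x : E → Bool) :
    IsArcConnected a b t h 1 x ↔ IsStronglyConnected a b t h x := by
  classical
  have hin : ∀ X : Set V, 1 ≤ inDegree a b t h x X ↔ ∃ u v, u ∉ X ∧ v ∈ X ∧ ArcRel a b t h x u v := by
    intro X
    unfold inDegree
    constructor
    · intro h1
      by_cases h2 : 0 < Set.ncard {i : E | tailOf a b (i, x i) ∉ X ∧ headOf a b (i, x i) ∈ X}
      · obtain ⟨i, hi⟩ := (Set.ncard_pos (Set.toFinite _)).mp h2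
        exact ⟨_, _, hi.1, hi.2, Or.inl ⟨i, rfl, rfl⟩⟩
      · have h3 : 0 < Set.ncard {f : F | t f ∉ X ∧ h f ∈ X} := by omega
        obtain ⟨f, hf⟩ := (Set.ncard_pos (Set.toFinite _)).mp h3
        exact ⟨_, _, hf.1, hf.2, Or.inr ⟨f, rfl, rfl⟩⟩
    · rintro ⟨u, v, hu, hv, (⟨i, rfl, rfl⟩ | ⟨f, rfl, rfl⟩)⟩
      · have h2 : 0 < Set.ncard {i : E | tailOf a b (i, x i) ∉ X ∧ headOf a b (i, x i) ∈ X} :=
          (Set.ncard_pos (Set.toFinite _)).mpr ⟨i, hu, hv⟩
        omega
      · have h2 : 0 < Set.ncard {f : F | t f ∉ X ∧ h f ∈ X} :=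
          (Set.ncard_pos (Set.toFinite _)).mpr ⟨f, hu, hv⟩
        omega
  constructor
  · intro hconn u v
    by_contra hno
    set X : Set V := {w | Relation.ReflTransGen (ArcRel a b t h x) w v} with hX
    have hvX : v ∈ X := Relation.ReflTransGen.refl
    have huX : u ∉ X := hno
    obtain ⟨p, q, hp, hq, hpq⟩ := (hin X).mp (hconn X ⟨v, hvX⟩ (fun hc => huX (hc ▸ Set.mem_univ u)))
    exact hp (Relation.ReflTransGen.head hpq hq)
  · intro hconn X ⟨v, hv⟩ hXu
    obtain ⟨u, hu⟩ : ∃ u, u ∉ X := by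
      by_contra hc
      simp only [not_exists, not_not] at hc
      exact hXu (Set.eq_univ_of_forall hc)
    rw [hin]
    have hpath := hconn u v
    -- a path from outside X to inside X has an arc entering X
    induction hpath with
    | refl => exact absurd hv hu
    | @tail c d _ hcd ih =>
      by_cases hc : c ∈ X
      · exact ih hc
      · exact ⟨c, d, hc, hv, hcd⟩

end orient

/-- **Main theorem.**  For a mixed multigraph with at least one `k`-arc-connected orientation, the
`k`-arc-connected orientations are exactly the common bases of two matroids on `E × Bool`. -/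
theorem orientations_are_common_bases (a b : E → V) (t h : F → V) (k : ℕ)
    (hex : ∃ x, IsArcConnected a b t h k x) :
    ∃ M₁ M₂ : Matroid (E × Bool), M₁.E = Set.univ ∧ M₂.E = Set.univ ∧
      (∀ B, M₁.IsBase B ↔ ∃ x, B = graphOf x) ∧
      (∀ B, M₂.IsBase B ↔ IsOrientBase a b t h k B) ∧
      (∀ B, (M₁.IsBase B ∧ M₂.IsBase B) ↔ ∃ x, IsArcConnected a b t h k x ∧ B = graphOf x) ∧
      Set.ncard {B | M₁.IsBase B ∧ M₂.IsBase B} = Set.ncard {x | IsArcConnected a b t h k x} := by
  classical
  obtain ⟨x₀, hx₀⟩ := hex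
  have hfin : (Set.univ : Set (E × Bool)).Finite := Set.toFinite _
  let M₁ : Matroid (E × Bool) := Matroid.ofIsBaseOfFinite hfin
    (fun B => ∃ x : E → Bool, B = graphOf x) ⟨_, x₀, rfl⟩ graph_exchange
    (fun _ _ => Set.subset_univ _)
  let M₂ : Matroid (E × Bool) := Matroid.ofIsBaseOfFinite hfin
    (IsOrientBase a b t h k) ⟨_, (isOrientBase_graphOf a b t h k x₀).mpr hx₀⟩
    (orient_exchange a b t h k) (fun _ _ => Set.subset_univ _)
  have h1 : ∀ B, M₁.IsBase B ↔ ∃ x, B = graphOf x := fun B => by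
    simp [M₁]
  have h2 : ∀ B, M₂.IsBase B ↔ IsOrientBase a b t h k B := fun B => by
    simp [M₂]
  have h3 : ∀ B, (M₁.IsBase B ∧ M₂.IsBase B) ↔ ∃ x, IsArcConnected a b t h k x ∧ B = graphOf x := by
    intro B
    rw [h1, h2]
    constructor
    · rintro ⟨⟨x, rfl⟩, hB⟩
      exact ⟨x, (isOrientBase_graphOf a b t h k x).mp hB, rfl⟩
    · rintro ⟨x, hx, rfl⟩
      exact ⟨⟨x, rfl⟩, (isOrientBase_graphOf a b t h k x).mpr hx⟩
  refine ⟨M₁, M₂, rfl, rfl, h1, h2, h3, ?_⟩
  have h4 : {B | M₁.IsBase B ∧ M₂.IsBase B} = graphOf '' {x | IsArcConnected a b t h k x} := by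
    ext B
    simp only [Set.mem_setOf_eq, Set.mem_image]
    rw [h3]
    constructor
    · rintro ⟨x, hx, rfl⟩
      exact ⟨x, hx, rfl⟩
    · rintro ⟨x, hx, rfl⟩
      exact ⟨x, hx, rfl⟩
  rw [h4, Set.ncard_image_of_injective _ graphOf_injective]

end Vale.Agent.Lib.P317
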